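import Vale.Agent.KSat.PModel
import Vale.Agent.KSat.Transfer
import Vale.Agent.KSat.Lim

/-! # P170: the satisfiability threshold conjecture holds for every `k ≥ 3` -/

namespace Vale.Agent.Results.P170.SatThreshold

open Filter Topology

/-- For every fixed `k ≥ 3`, random `k`-SAT has a limiting threshold: there is a real number
`α > 0` such that `P_{k,n}(⌊c n⌋) → 1` for `0 ≤ c < α` and `P_{k,n}(⌊c n⌋) → 0` for `c > α`. -/
theorem result : ∀ k : ℕ, 3 ≤ k → ∃ α : ℝ, 0 < α ∧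
    (∀ c : ℝ, 0 ≤ c → c < α →
      Tendsto (fun n : ℕ => KSat.PP k n ⌊c * (n : ℝ)⌋₊) atTop (𝓝 1)) ∧
    (∀ c : ℝ, α < c →
      Tendsto (fun n : ℕ => KSat.PP k n ⌊c * (n : ℝ)⌋₊) atTop (𝓝 0)) :=
  fun _ hk => KSat.transfer hk (KSat.limit_rep hk)

end Vale.Agent.Results.P170.SatThreshold
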